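import Vale.Agent.H88.CT.Defs
import Vale.Agent.H88.CT.Abstract

/-!
Unit switches of contingency tables: shared definitions for the one-dimensional
three-column inequality (P328, ROW ONEDIM).
-/

namespace Vale.Agent.H86.CT

open Finset Vale.Agent.H90 Vale.Agent.H88.CT

variable {m n : ℕ} {r : Fin m → ℕ} {c : Fin n → ℕ}

/-- `Y` arises from `X` by a unit switch in rows `i, j` and columns `u, v`: one unit moves from
cell `(i, v)` to cell `(i, u)` and one unit from cell `(j, u)` to cell `(j, v)`; nothing else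
changes. -/
def UnitSw (i j : Fin m) (u v : Fin n) (X Y : Omega r c) : Prop :=
  Y.1 i u = X.1 i u + 1 ∧ X.1 i v = Y.1 i v + 1 ∧ X.1 j u = Y.1 j u + 1 ∧
    Y.1 j v = X.1 j v + 1 ∧ BlockRel i j u v X Y

/-- Unit-switch pairs inside the `2 x 3` block of rows `i, j` and columns `a, b, d`. -/
def Rho3 (i j : Fin m) (a b d : Fin n) (X Y : Omega r c) : Prop :=
  UnitSw i j a b X Y ∨ UnitSw i j b a X Y ∨ UnitSw i j b d X Y ∨ UnitSw i j d b X Y ∨
    UnitSw i j d a X Y ∨ UnitSw i j a d X Y

end Vale.Agent.H86.CT
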