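import Vale.Agent.H86.CT.SwConn

/-!
P328, ROW ONEDIM: the class of a `2 x 3` block relation is connected by the three `2 x 2` block
relations (local version of `block_inv_block3`, by unit switches).
-/

namespace Vale.Agent.H86.CT

open Finset Vale.Agent.H90 Vale.Agent.H88.CT

variable {m n : ℕ} {r : Fin m → ℕ} {c : Fin n → ℕ}

/-- splitting a finite sum at three distinct points -/
theorem sum_three {k : ℕ} (F : Fin k → ℕ) (u v w : Fin k) (huv : u ≠ v) (huw : u ≠ w)
    (hvw : v ≠ w) :
    ∑ l, F l = F u + F v + F w + ∑ l ∈ ((univ.erase u).erase v).erase w, F l := by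
  rw [← Finset.add_sum_erase univ F (mem_univ u),
    ← Finset.add_sum_erase (univ.erase u) F (mem_erase.mpr ⟨huv.symm, mem_univ v⟩),
    ← Finset.add_sum_erase ((univ.erase u).erase v) F
      (mem_erase.mpr ⟨hvw.symm, mem_erase.mpr ⟨huw.symm, mem_univ w⟩⟩)]
  ring

theorem blockRel_swap (i j : Fin m) (u v : Fin n) (X Y : Omega r c)
    (h : BlockRel i j u v X Y) : BlockRel i j v u X Y :=
  fun k l hkl => h k l (fun hh => hkl ⟨hh.1, hh.2.symm⟩)

theorem block3Rel_perm (i j : Fin m) (a b d u v w : Fin n)
    (hp : ∀ l, (l = u ∨ l = v ∨ l = w) → (l = a ∨ l = b ∨ l = d)) (X Y : Omega r c)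
    (h : Block3Rel i j u v w X Y) : Block3Rel i j a b d X Y :=
  fun k l hkl => h k l (fun hh => hkl ⟨hh.1, hp l hh.2⟩)

/-- a unit switch exists as soon as the two decreasing cells are positive -/
theorem exists_sw (i j : Fin m) (hij : i ≠ j) (u v : Fin n) (huv : u ≠ v) (X : Omega r c)
    (h1 : 1 ≤ X.1 i v) (h2 : 1 ≤ X.1 j u) : ∃ Z : Omega r c, UnitSw i j u v X Z := by
  refine ⟨⟨swTab i j u v X.1, fun k => ?_, fun l => ?_⟩, ⟨?_, ?_, ?_, ?_, ?_⟩⟩
  · rw [swTab_row i j hij u v huv X.1 h1 h2 k]; exact X.2.1 k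
  · rw [swTab_col i j hij u v huv X.1 h1 h2 l]; exact X.2.2 l
  · exact swTab_iu i j u v X.1
  · show X.1 i v = swTab i j u v X.1 i v + 1
    rw [swTab_iv i j u v huv]; omega
  · show X.1 j u = swTab i j u v X.1 j u + 1
    rw [swTab_ju i j hij]; omega
  · exact swTab_jv i j hij u v huv X.1
  · intro k l hkl
    exact (swTab_off i j u v X.1 k l hkl).symm

/-- the linear relations between the block entries of two `2 x 3`-block-related tables -/
theorem block3Rel_entries (i j : Fin m) (hij : i ≠ j) (a b d : Fin n) (hab : a ≠ b)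
    (hbd : b ≠ d) (had : a ≠ d) (X Y : Omega r c) (h : Block3Rel i j a b d X Y) :
    X.1 i a + X.1 i b + X.1 i d = Y.1 i a + Y.1 i b + Y.1 i d ∧
      ∀ l, X.1 i l + X.1 j l = Y.1 i l + Y.1 j l := by
  constructor
  · have e1 := X.2.1 i
    have e2 := Y.2.1 i
    rw [sum_three (fun l => X.1 i l) a b d hab had hbd] at e1
    rw [sum_three (fun l => Y.1 i l) a b d hab had hbd] at e2
    have e3 : ∑ l ∈ ((univ.erase a).erase b).erase d, X.1 i l
        = ∑ l ∈ ((univ.erase a).erase b).erase d, Y.1 i l := by
      refine Finset.sum_congr rfl (fun l hl => ?_)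
      have hl1 := (mem_erase.mp hl).1
      have hl2 := (mem_erase.mp (mem_erase.mp hl).2).1
      have hl3 := (mem_erase.mp (mem_erase.mp (mem_erase.mp hl).2).2).1
      exact h i l (fun hh => by rcases hh.2 with e | e | e <;> contradiction)
    omega
  · intro l
    have e1 := X.2.2 l
    have e2 := Y.2.2 l
    rw [sum_two (fun k => X.1 k l) i j hij] at e1
    rw [sum_two (fun k => Y.1 k l) i j hij] at e2
    have e3 : ∑ k ∈ (univ.erase i).erase j, X.1 k l = ∑ k ∈ (univ.erase i).erase j, Y.1 k l := by
      refine Finset.sum_congr rfl (fun k hk => ?_)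
      have hk1 := (mem_erase.mp hk).1
      have hk2 := (mem_erase.mp (mem_erase.mp hk).2).1
      exact h k l (fun hh => hh.1.elim hk2 hk1)
    omega

/-- one unit switch towards `Y` inside a `2 x 3` block: a unit of row `i` moves from column `u`
(where `X` is too large) to column `v` (where `X` is too small) -/
theorem block3_step {α : Type*} (i j : Fin m) (hij : i ≠ j) (u v w : Fin n) (huv : u ≠ v)
    (huw : u ≠ w) (hvw : v ≠ w) (f : Omega r c → α)
    (hf : ∀ X Y, BlockRel i j v u X Y → f X = f Y) (X Y : Omega r c)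
    (h : Block3Rel i j u v w X Y) (hu : Y.1 i u < X.1 i u) (hv : X.1 i v < Y.1 i v) :
    ∃ Z : Omega r c, f X = f Z ∧ Block3Rel i j u v w Z Y ∧ X.1 i u = Z.1 i u + 1 ∧
      Z.1 i v = X.1 i v + 1 ∧ Z.1 i w = X.1 i w := by
  obtain ⟨-, ecol⟩ := block3Rel_entries i j hij u v w huv hvw huw X Y h
  have ev := ecol v
  obtain ⟨Z, hZ⟩ := exists_sw i j hij v u (Ne.symm huv) X (by omega) (by omega)
  obtain ⟨z1, z2, z3, z4, z5⟩ := hZ
  refine ⟨Z, hf X Z z5, ?_, z2, z1, ?_⟩
  · intro k l hkl
    rw [← z5 k l (fun hh => hkl ⟨hh.1, by tauto⟩)]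
    exact h k l hkl
  · exact (z5 i w (fun hh => by rcases hh.2 with e | e <;> [exact hvw e.symm; exact huw e.symm])).symm

/-- a function that is constant on the classes of the three `2 x 2` block relations of a
`2 x 3` block is constant on the classes of the `2 x 3` block relation -/
theorem block_inv_block3_loc {α : Type*} (i j : Fin m) (hij : i ≠ j) (a b d : Fin n)
    (hab : a ≠ b) (hbd : b ≠ d) (had : a ≠ d) (f : Omega r c → α)
    (h1 : ∀ X Y, BlockRel i j a b X Y → f X = f Y)
    (h2 : ∀ X Y, BlockRel i j b d X Y → f X = f Y)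
    (h3 : ∀ X Y, BlockRel i j d a X Y → f X = f Y) :
    ∀ X Y, Block3Rel i j a b d X Y → f X = f Y := by
  have h1' : ∀ X Y, BlockRel i j b a X Y → f X = f Y :=
    fun X Y h => h1 X Y (blockRel_swap i j b a X Y h)
  have h2' : ∀ X Y, BlockRel i j d b X Y → f X = f Y :=
    fun X Y h => h2 X Y (blockRel_swap i j d b X Y h)
  have h3' : ∀ X Y, BlockRel i j a d X Y → f X = f Y :=
    fun X Y h => h3 X Y (blockRel_swap i j a d X Y h)
  have key : ∀ (k : ℕ) (X Y : Omega r c), Block3Rel i j a b d X Y →
      (X.1 i a - Y.1 i a) + (X.1 i b - Y.1 i b) + (X.1 i d - Y.1 i d) = k → f X = f Y := by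
    intro k
    induction k with
    | zero =>
      intro X Y h hk
      obtain ⟨erow, ecol⟩ := block3Rel_entries i j hij a b d hab hbd had X Y h
      have ea := ecol a
      have eb := ecol b
      have ed := ecol d
      have hXY : X = Y := by
        apply Subtype.ext
        funext k l
        by_cases hkl : (k = i ∨ k = j) ∧ (l = a ∨ l = b ∨ l = d)
        · obtain ⟨hk' | hk', hl | hl | hl⟩ := hkl <;> subst hk' <;> subst hl <;> omega
        · exact h k l hkl
      rw [hXY]
    | succ k ih =>
      intro X Y h hk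
      obtain ⟨erow, -⟩ := block3Rel_entries i j hij a b d hab hbd had X Y h
      have hcase : Y.1 i a < X.1 i a ∨ Y.1 i b < X.1 i b ∨ Y.1 i d < X.1 i d := by omega
      rcases hcase with hu | hu | hu
      · -- too large at `a`
        have hcase2 : X.1 i b < Y.1 i b ∨ X.1 i d < Y.1 i d := by omega
        rcases hcase2 with hv | hv
        · obtain ⟨Z, e0, e1, e2, e3, e4⟩ := block3_step i j hij a b d hab had hbd f h1' X Y
            (block3Rel_perm i j a b d a b d (fun l hl => by tauto) X Y h) hu hv
          rw [e0]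
          exact ih Z Y (block3Rel_perm i j a b d a b d (fun l hl => by tauto) Z Y e1) (by omega)
        · obtain ⟨Z, e0, e1, e2, e3, e4⟩ := block3_step i j hij a d b had hab (Ne.symm hbd) f h3
            X Y (block3Rel_perm i j a d b a b d (fun l hl => by tauto) X Y h) hu hv
          rw [e0]
          exact ih Z Y (block3Rel_perm i j a b d a d b (fun l hl => by tauto) Z Y e1) (by omega)
      · -- too large at `b`
        have hcase2 : X.1 i a < Y.1 i a ∨ X.1 i d < Y.1 i d := by omega
        rcases hcase2 with hv | hv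
        · obtain ⟨Z, e0, e1, e2, e3, e4⟩ := block3_step i j hij b a d (Ne.symm hab) hbd had f h1
            X Y (block3Rel_perm i j b a d a b d (fun l hl => by tauto) X Y h) hu hv
          rw [e0]
          exact ih Z Y (block3Rel_perm i j a b d b a d (fun l hl => by tauto) Z Y e1) (by omega)
        · obtain ⟨Z, e0, e1, e2, e3, e4⟩ := block3_step i j hij b d a hbd (Ne.symm hab)
            (Ne.symm had) f h2' X Y
            (block3Rel_perm i j b d a a b d (fun l hl => by tauto) X Y h) hu hv
          rw [e0]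
          exact ih Z Y (block3Rel_perm i j a b d b d a (fun l hl => by tauto) Z Y e1) (by omega)
      · -- too large at `d`
        have hcase2 : X.1 i a < Y.1 i a ∨ X.1 i b < Y.1 i b := by omega
        rcases hcase2 with hv | hv
        · obtain ⟨Z, e0, e1, e2, e3, e4⟩ := block3_step i j hij d a b (Ne.symm had)
            (Ne.symm hbd) hab f h3' X Y
            (block3Rel_perm i j d a b a b d (fun l hl => by tauto) X Y h) hu hv
          rw [e0]
          exact ih Z Y (block3Rel_perm i j a b d d a b (fun l hl => by tauto) Z Y e1) (by omega)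
        · obtain ⟨Z, e0, e1, e2, e3, e4⟩ := block3_step i j hij d b a (Ne.symm hbd)
            (Ne.symm had) (Ne.symm hab) f h2 X Y
            (block3Rel_perm i j d b a a b d (fun l hl => by tauto) X Y h) hu hv
          rw [e0]
          exact ih Z Y (block3Rel_perm i j a b d d b a (fun l hl => by tauto) Z Y e1) (by omega)
  intro X Y h
  exact key _ X Y h rfl

end Vale.Agent.H86.CT
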