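import Vale.Agent.H86.CT.OneDim
import Vale.Agent.H86.CT.Conn3
import Vale.Agent.H17.CT.Step1Bridge

/-!
P328, ROW ONEDIM (board 262): the one-dimensional three-column inequality inside a row pair of
a class of contingency tables.  On every class of the `2 x 3` block relation (three bounded
integers with a fixed sum, uniform law) the variance of a function is at most the sum of its
three mean conditional variances given one coordinate.
-/

namespace Vale.Agent.H86.CT

open Finset Vale.Agent.H90 Vale.Agent.H88.CT

theorem block3_ineq {m n : ℕ} {r : Fin m → ℕ} {c : Fin n → ℕ} (i j : Fin m) (hij : i ≠ j)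
    (a b d : Fin n) (hab : a ≠ b) (hbd : b ≠ d) (had : a ≠ d) (f : Omega r c → ℝ) :
    ∑ X, (f X - avgRel (Block3Rel i j a b d) f X) ^ 2
      ≤ ∑ X, (f X - avgRel (BlockRel i j a b) f X) ^ 2
        + ∑ X, (f X - avgRel (BlockRel i j b d) f X) ^ 2
        + ∑ X, (f X - avgRel (BlockRel i j d a) f X) ^ 2 :=
  block3_ineq_of i j hij a b d hab hbd had
    (fun f L hL X Y h => Vale.Agent.H17.CT.step1_unitSw i j hij a b d hab hbd had f L hL X Y h)
    (fun g h1 h2 h3 => block_inv_block3_loc i j hij a b d hab hbd had g h1 h2 h3) f

end Vale.Agent.H86.CT
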