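import Vale.Agent.H86.CT.UnitSw

/-!
P328, ROW ONEDIM: unit switches connect every class of a `2 x 2` block relation
(the class is a one-parameter family).
-/

namespace Vale.Agent.H86.CT

open Finset Vale.Agent.H90 Vale.Agent.H88.CT

variable {m n : ℕ} {r : Fin m → ℕ} {c : Fin n → ℕ}

/-- splitting a finite sum at two distinct points -/
theorem sum_two {k : ℕ} (F : Fin k → ℕ) (u v : Fin k) (huv : u ≠ v) :
    ∑ l, F l = F u + F v + ∑ l ∈ (univ.erase u).erase v, F l := by
  rw [← Finset.add_sum_erase univ F (mem_univ u),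
    ← Finset.add_sum_erase (univ.erase u) F (mem_erase.mpr ⟨huv.symm, mem_univ v⟩)]
  ring

/-- the four linear relations between the block entries of two block-related tables -/
theorem blockRel_entries (i j : Fin m) (hij : i ≠ j) (u v : Fin n) (huv : u ≠ v)
    (X Y : Omega r c) (h : BlockRel i j u v X Y) :
    X.1 i u + X.1 i v = Y.1 i u + Y.1 i v ∧ X.1 j u + X.1 j v = Y.1 j u + Y.1 j v ∧
      X.1 i u + X.1 j u = Y.1 i u + Y.1 j u ∧ X.1 i v + X.1 j v = Y.1 i v + Y.1 j v := by
  have hrow : ∀ k, X.1 k u + X.1 k v = Y.1 k u + Y.1 k v := by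
    intro k
    have e1 := X.2.1 k
    have e2 := Y.2.1 k
    rw [sum_two (fun l => X.1 k l) u v huv] at e1
    rw [sum_two (fun l => Y.1 k l) u v huv] at e2
    have e3 : ∑ l ∈ (univ.erase u).erase v, X.1 k l = ∑ l ∈ (univ.erase u).erase v, Y.1 k l := by
      refine Finset.sum_congr rfl (fun l hl => ?_)
      have hl1 := (mem_erase.mp hl).1
      have hl2 := (mem_erase.mp (mem_erase.mp hl).2).1
      exact h k l (fun hh => hh.2.elim hl2 hl1)
    omega
  have hcol : ∀ l, X.1 i l + X.1 j l = Y.1 i l + Y.1 j l := by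
    intro l
    have e1 := X.2.2 l
    have e2 := Y.2.2 l
    rw [sum_two (fun k => X.1 k l) i j hij] at e1
    rw [sum_two (fun k => Y.1 k l) i j hij] at e2
    have e3 : ∑ k ∈ (univ.erase i).erase j, X.1 k l = ∑ k ∈ (univ.erase i).erase j, Y.1 k l := by
      refine Finset.sum_congr rfl (fun k hk => ?_)
      have hk1 := (mem_erase.mp hk).1
      have hk2 := (mem_erase.mp (mem_erase.mp hk).2).1
      exact h k l (fun hh => hh.1.elim hk2 hk1)
    omega
  exact ⟨hrow i, hrow j, hcol u, hcol v⟩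

/-- two block-related tables with the same entry at `(i, u)` are equal -/
theorem eq_of_blockRel_of_entry (i j : Fin m) (hij : i ≠ j) (u v : Fin n) (huv : u ≠ v)
    (X Y : Omega r c) (h : BlockRel i j u v X Y) (he : X.1 i u = Y.1 i u) : X = Y := by
  obtain ⟨e1, e2, e3, e4⟩ := blockRel_entries i j hij u v huv X Y h
  apply Subtype.ext
  funext k l
  by_cases hkl : (k = i ∨ k = j) ∧ (l = u ∨ l = v)
  · obtain ⟨hk | hk, hl | hl⟩ := hkl <;> subst hk <;> subst hl <;> omega
  · exact h k l hkl

/-- the entries of a table after a unit switch in rows `i, j` and columns `u, v` -/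
def swTab (i j : Fin m) (u v : Fin n) (X : Fin m → Fin n → ℕ) : Fin m → Fin n → ℕ :=
  fun k l => if k = i ∧ l = u then X i u + 1 else if k = i ∧ l = v then X i v - 1
    else if k = j ∧ l = u then X j u - 1 else if k = j ∧ l = v then X j v + 1 else X k l

theorem swTab_iu (i j : Fin m) (u v : Fin n) (X : Fin m → Fin n → ℕ) :
    swTab i j u v X i u = X i u + 1 := by
  unfold swTab
  rw [if_pos ⟨rfl, rfl⟩]

theorem swTab_iv (i j : Fin m) (u v : Fin n) (huv : u ≠ v) (X : Fin m → Fin n → ℕ) :
    swTab i j u v X i v = X i v - 1 := by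
  unfold swTab
  rw [if_neg (fun hh => huv hh.2.symm), if_pos ⟨rfl, rfl⟩]

theorem swTab_ju (i j : Fin m) (hij : i ≠ j) (u v : Fin n) (X : Fin m → Fin n → ℕ) :
    swTab i j u v X j u = X j u - 1 := by
  unfold swTab
  rw [if_neg (fun hh => hij hh.1.symm), if_neg (fun hh => hij hh.1.symm), if_pos ⟨rfl, rfl⟩]

theorem swTab_jv (i j : Fin m) (hij : i ≠ j) (u v : Fin n) (huv : u ≠ v)
    (X : Fin m → Fin n → ℕ) : swTab i j u v X j v = X j v + 1 := by
  unfold swTab
  rw [if_neg (fun hh => hij hh.1.symm), if_neg (fun hh => hij hh.1.symm),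
    if_neg (fun hh => huv hh.2.symm), if_pos ⟨rfl, rfl⟩]

theorem swTab_off (i j : Fin m) (u v : Fin n) (X : Fin m → Fin n → ℕ) (k : Fin m) (l : Fin n)
    (hkl : ¬ ((k = i ∨ k = j) ∧ (l = u ∨ l = v))) : swTab i j u v X k l = X k l := by
  unfold swTab
  rw [if_neg (fun hh => hkl ⟨Or.inl hh.1, Or.inl hh.2⟩),
    if_neg (fun hh => hkl ⟨Or.inl hh.1, Or.inr hh.2⟩),
    if_neg (fun hh => hkl ⟨Or.inr hh.1, Or.inl hh.2⟩),
    if_neg (fun hh => hkl ⟨Or.inr hh.1, Or.inr hh.2⟩)]

/-- a unit switch preserves the row sums -/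
theorem swTab_row (i j : Fin m) (hij : i ≠ j) (u v : Fin n) (huv : u ≠ v)
    (X : Fin m → Fin n → ℕ) (h1 : 1 ≤ X i v) (h2 : 1 ≤ X j u) (k : Fin m) :
    ∑ l, swTab i j u v X k l = ∑ l, X k l := by
  rw [sum_two (fun l => swTab i j u v X k l) u v huv, sum_two (fun l => X k l) u v huv]
  have e3 : ∑ l ∈ (univ.erase u).erase v, swTab i j u v X k l
      = ∑ l ∈ (univ.erase u).erase v, X k l := by
    refine Finset.sum_congr rfl (fun l hl => ?_)
    have hl1 := (mem_erase.mp hl).1
    have hl2 := (mem_erase.mp (mem_erase.mp hl).2).1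
    exact swTab_off i j u v X k l (fun hh => hh.2.elim hl2 hl1)
  rw [e3]
  by_cases hki : k = i
  · subst hki
    rw [swTab_iu, swTab_iv k j u v huv]
    omega
  · by_cases hkj : k = j
    · subst hkj
      rw [swTab_ju i k hij, swTab_jv i k hij u v huv]
      omega
    · rw [swTab_off i j u v X k u (fun hh => hh.1.elim hki hkj),
        swTab_off i j u v X k v (fun hh => hh.1.elim hki hkj)]

/-- a unit switch preserves the column sums -/
theorem swTab_col (i j : Fin m) (hij : i ≠ j) (u v : Fin n) (huv : u ≠ v)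
    (X : Fin m → Fin n → ℕ) (h1 : 1 ≤ X i v) (h2 : 1 ≤ X j u) (l : Fin n) :
    ∑ k, swTab i j u v X k l = ∑ k, X k l := by
  rw [sum_two (fun k => swTab i j u v X k l) i j hij, sum_two (fun k => X k l) i j hij]
  have e3 : ∑ k ∈ (univ.erase i).erase j, swTab i j u v X k l
      = ∑ k ∈ (univ.erase i).erase j, X k l := by
    refine Finset.sum_congr rfl (fun k hk => ?_)
    have hk1 := (mem_erase.mp hk).1
    have hk2 := (mem_erase.mp (mem_erase.mp hk).2).1
    exact swTab_off i j u v X k l (fun hh => hh.1.elim hk2 hk1)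
  rw [e3]
  by_cases hlu : l = u
  · subst hlu
    rw [swTab_iu, swTab_ju i j hij]
    omega
  · by_cases hlv : l = v
    · subst hlv
      rw [swTab_iv i j u l huv, swTab_jv i j hij u l huv]
      omega
    · rw [swTab_off i j u v X i l (fun hh => hh.2.elim hlu hlv),
        swTab_off i j u v X j l (fun hh => hh.2.elim hlu hlv)]

/-- one unit switch towards a block-related table with a larger entry at `(i, u)` -/
theorem exists_unitSw (i j : Fin m) (hij : i ≠ j) (u v : Fin n) (huv : u ≠ v)
    (X Y : Omega r c) (h : BlockRel i j u v X Y) (hlt : X.1 i u < Y.1 i u) :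
    ∃ Z : Omega r c, UnitSw i j u v X Z ∧ BlockRel i j u v Z Y := by
  obtain ⟨e1, e2, e3, e4⟩ := blockRel_entries i j hij u v huv X Y h
  have h1 : 1 ≤ X.1 i v := by omega
  have h2 : 1 ≤ X.1 j u := by omega
  refine ⟨⟨swTab i j u v X.1, fun k => ?_, fun l => ?_⟩, ⟨?_, ?_, ?_, ?_, ?_⟩, ?_⟩
  · rw [swTab_row i j hij u v huv X.1 h1 h2 k]; exact X.2.1 k
  · rw [swTab_col i j hij u v huv X.1 h1 h2 l]; exact X.2.2 l
  · exact swTab_iu i j u v X.1
  · show X.1 i v = swTab i j u v X.1 i v + 1
    rw [swTab_iv i j u v huv]; omega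
  · show X.1 j u = swTab i j u v X.1 j u + 1
    rw [swTab_ju i j hij]; omega
  · exact swTab_jv i j hij u v huv X.1
  · intro k l hkl
    exact (swTab_off i j u v X.1 k l hkl).symm
  · intro k l hkl
    show swTab i j u v X.1 k l = Y.1 k l
    rw [swTab_off i j u v X.1 k l hkl]
    exact h k l hkl

/-- a function that is constant along the unit switches of a `2 x 2` block is constant on the
classes of the block relation -/
theorem blockRel_of_unitSw {α : Type*} (i j : Fin m) (hij : i ≠ j) (u v : Fin n) (huv : u ≠ v)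
    (g : Omega r c → α) (hg : ∀ X Y, UnitSw i j u v X Y → g X = g Y) :
    ∀ X Y, BlockRel i j u v X Y → g X = g Y := by
  have key : ∀ (k : ℕ) (X Y : Omega r c), BlockRel i j u v X Y → Y.1 i u = X.1 i u + k →
      g X = g Y := by
    intro k
    induction k with
    | zero =>
      intro X Y h he
      rw [eq_of_blockRel_of_entry i j hij u v huv X Y h (by omega)]
    | succ k ih =>
      intro X Y h he
      obtain ⟨Z, hXZ, hZY⟩ := exists_unitSw i j hij u v huv X Y h (by omega)
      rw [hg X Z hXZ]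
      exact ih Z Y hZY (by have := hXZ.1; omega)
  intro X Y h
  rcases Nat.le_total (X.1 i u) (Y.1 i u) with hle | hle
  · exact key (Y.1 i u - X.1 i u) X Y h (by omega)
  · have h' : BlockRel i j u v Y X := fun k l hkl => (h k l hkl).symm
    exact (key (X.1 i u - Y.1 i u) Y X h' (by omega)).symm

end Vale.Agent.H86.CT
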