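import Vale.Agent.H86.CT.UnitSw
import Vale.Agent.H86.CT.SwConn

/-!
P328, ROW ONEDIM: the one-dimensional three-column inequality inside a row pair of a class of
contingency tables, from the Lipschitz contraction of the averaged block heat bath along unit
switches (STEP 1, a hypothesis of `block3_eigen_of` / `block3_ineq_of`), the connectivity of the
block classes by unit switches (`blockRel_of_unitSw`) and the abstract spectral lemmas of
`Vale.Agent.H88.CT`.
-/

namespace Vale.Agent.H86.CT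

open Finset Vale.Agent.H90 Vale.Agent.H88.CT

variable {m n : ℕ} {r : Fin m → ℕ} {c : Fin n → ℕ}

/-! ### Elementary facts on the block relations -/

theorem blockRel_equiv_loc (i j : Fin m) (a b : Fin n) :
    Equivalence (BlockRel (r := r) (c := c) i j a b) :=
  ⟨fun _ _ _ _ => rfl, fun h k l hkl => (h k l hkl).symm,
    fun h1 h2 k l hkl => (h1 k l hkl).trans (h2 k l hkl)⟩

theorem block3Rel_equiv_loc (i j : Fin m) (a b d : Fin n) :
    Equivalence (Block3Rel (r := r) (c := c) i j a b d) :=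
  ⟨fun _ _ _ _ => rfl, fun h k l hkl => (h k l hkl).symm,
    fun h1 h2 k l hkl => (h1 k l hkl).trans (h2 k l hkl)⟩

theorem block_le_block3_ab (i j : Fin m) (a b d : Fin n) (X Y : Omega r c)
    (h : BlockRel i j a b X Y) : Block3Rel i j a b d X Y := by
  intro k l hkl
  apply h k l
  rintro ⟨h1, h2⟩
  exact hkl ⟨h1, by tauto⟩

theorem block_le_block3_bd (i j : Fin m) (a b d : Fin n) (X Y : Omega r c)
    (h : BlockRel i j b d X Y) : Block3Rel i j a b d X Y := by
  intro k l hkl
  apply h k l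
  rintro ⟨h1, h2⟩
  exact hkl ⟨h1, by tauto⟩

theorem block_le_block3_da (i j : Fin m) (a b d : Fin n) (X Y : Omega r c)
    (h : BlockRel i j d a X Y) : Block3Rel i j a b d X Y := by
  intro k l hkl
  apply h k l
  rintro ⟨h1, h2⟩
  exact hkl ⟨h1, by tauto⟩

/-- Pointwise form of `g - (1/3) K3 g` as the mean of the three block averages. -/
theorem M3_apply (R1 R2 R3 : Omega r c → Omega r c → Prop) [DecidableRel R1] [DecidableRel R2]
    [DecidableRel R3] (g : Omega r c → ℝ) (X : Omega r c) :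
    (g - (1 / 3 : ℝ) • K3 R1 R2 R3 g) X
      = (1 / 3 : ℝ) * (avgRel R1 g X + avgRel R2 g X + avgRel R3 g X) := by
  simp only [K3, Qrel, Pi.sub_apply, Pi.smul_apply, Pi.add_apply, smul_eq_mul]
  ring

/-- The spectral statement for the three block relations of a `2 x 3` block, from STEP 1 (the
Lipschitz contraction along unit switches). -/
theorem block3_eigen_of (i j : Fin m) (hij : i ≠ j) (a b d : Fin n) (hab : a ≠ b) (hbd : b ≠ d)
    (had : a ≠ d)
    (hstep : ∀ (f : Omega r c → ℝ) (L : ℝ), (∀ X Y, Rho3 i j a b d X Y → |f X - f Y| ≤ L) →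
      ∀ X Y, Rho3 i j a b d X Y →
        |(avgRel (BlockRel i j a b) f X + avgRel (BlockRel i j b d) f X
            + avgRel (BlockRel i j d a) f X)
          - (avgRel (BlockRel i j a b) f Y + avgRel (BlockRel i j b d) f Y
            + avgRel (BlockRel i j d a) f Y)| ≤ 2 * L)
    (μ : ℝ) (f : Omega r c → ℝ) (hf0 : f ≠ 0)
    (hf : K3 (BlockRel i j a b) (BlockRel i j b d) (BlockRel i j d a) f = μ • f) :
    μ = 0 ∨ 1 ≤ μ := by
  by_contra hcon
  have hμ0 : μ ≠ 0 := fun h => hcon (Or.inl h)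
  have hμ1 : μ < 1 := lt_of_not_ge (fun h => hcon (Or.inr h))
  let M : (Omega r c → ℝ) → (Omega r c → ℝ) := fun g =>
    g - (1 / 3 : ℝ) • K3 (BlockRel i j a b) (BlockRel i j b d) (BlockRel i j d a) g
  have hA : ∀ (g : Omega r c → ℝ) (L : ℝ), (∀ X Y, Rho3 i j a b d X Y → |g X - g Y| ≤ L) →
      ∀ X Y, Rho3 i j a b d X Y → |M g X - M g Y| ≤ (2 / 3 : ℝ) * L := by
    intro g L hL X Y hXY
    have hc := hstep g L hL X Y hXY
    show |(g - (1 / 3 : ℝ) • K3 (BlockRel i j a b) (BlockRel i j b d) (BlockRel i j d a) g) X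
      - (g - (1 / 3 : ℝ) • K3 (BlockRel i j a b) (BlockRel i j b d) (BlockRel i j d a) g) Y| ≤ _
    rw [M3_apply, M3_apply, ← mul_sub, abs_mul, abs_of_pos (by norm_num : (0 : ℝ) < 1 / 3)]
    linarith
  have hB : ∀ (g : Omega r c → ℝ) (LA LB : ℝ), (∀ X Y, Rho3 i j a b d X Y → |g X - g Y| ≤ LA) →
      (∀ X Y : Omega r c, False → |g X - g Y| ≤ LB) →
      ∀ X Y : Omega r c, False → |M g X - M g Y| ≤ (2 / 3 : ℝ) * (LA + LB) :=
    fun _ _ _ _ _ _ _ h => h.elim
  have hMf : M f = (1 - μ / 3) • f := by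
    funext X
    simp only [M, Pi.sub_apply, Pi.smul_apply, smul_eq_mul, hf]
    ring
  have hlam : (2 / 3 : ℝ) < 1 - μ / 3 := by linarith
  obtain ⟨invA, -⟩ := lip_eigen M (Rho3 i j a b d) (fun _ _ => False) (2 / 3) hA hB
    (1 - μ / 3) hlam f hMf
  have inv1 : ∀ X Y, BlockRel i j a b X Y → f X = f Y :=
    blockRel_of_unitSw i j hij a b hab f (fun X Y h => invA X Y (Or.inl h))
  have inv2 : ∀ X Y, BlockRel i j b d X Y → f X = f Y :=
    blockRel_of_unitSw i j hij b d hbd f (fun X Y h => invA X Y (Or.inr (Or.inr (Or.inl h))))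
  have inv3 : ∀ X Y, BlockRel i j d a X Y → f X = f Y :=
    blockRel_of_unitSw i j hij d a (Ne.symm had) f
      (fun X Y h => invA X Y (Or.inr (Or.inr (Or.inr (Or.inr (Or.inl h))))))
  have q1 : Qrel (BlockRel i j a b) f = 0 :=
    Qrel_eq_zero_of_inv (blockRel_equiv_loc i j a b) f inv1
  have q2 : Qrel (BlockRel i j b d) f = 0 :=
    Qrel_eq_zero_of_inv (blockRel_equiv_loc i j b d) f inv2
  have q3 : Qrel (BlockRel i j d a) f = 0 :=
    Qrel_eq_zero_of_inv (blockRel_equiv_loc i j d a) f inv3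
  have hK0 : K3 (BlockRel i j a b) (BlockRel i j b d) (BlockRel i j d a) f = 0 := by
    unfold K3; rw [q1, q2, q3]; simp
  rw [hK0] at hf
  have : f = 0 := by
    funext X
    have := congrFun hf X
    simp only [Pi.zero_apply, Pi.smul_apply, smul_eq_mul] at this
    rcases mul_eq_zero.1 this.symm with h | h
    · exact absurd h hμ0
    · exact h
  exact hf0 this

/-- The three-column inequality inside a row pair, from STEP 1 and the connectivity of a
`2 x 3` block class by the three `2 x 2` block relations. -/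
theorem block3_ineq_of (i j : Fin m) (hij : i ≠ j) (a b d : Fin n) (hab : a ≠ b) (hbd : b ≠ d)
    (had : a ≠ d)
    (hstep : ∀ (f : Omega r c → ℝ) (L : ℝ), (∀ X Y, Rho3 i j a b d X Y → |f X - f Y| ≤ L) →
      ∀ X Y, Rho3 i j a b d X Y →
        |(avgRel (BlockRel i j a b) f X + avgRel (BlockRel i j b d) f X
            + avgRel (BlockRel i j d a) f X)
          - (avgRel (BlockRel i j a b) f Y + avgRel (BlockRel i j b d) f Y
            + avgRel (BlockRel i j d a) f Y)| ≤ 2 * L)
    (hconn : ∀ g : Omega r c → ℝ, (∀ X Y, BlockRel i j a b X Y → g X = g Y) →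
      (∀ X Y, BlockRel i j b d X Y → g X = g Y) → (∀ X Y, BlockRel i j d a X Y → g X = g Y) →
      ∀ X Y, Block3Rel i j a b d X Y → g X = g Y)
    (f : Omega r c → ℝ) :
    ∑ X, (f X - avgRel (Block3Rel i j a b d) f X) ^ 2
      ≤ ∑ X, (f X - avgRel (BlockRel i j a b) f X) ^ 2
        + ∑ X, (f X - avgRel (BlockRel i j b d) f X) ^ 2
        + ∑ X, (f X - avgRel (BlockRel i j d a) f X) ^ 2 := by
  rw [sum_sq_eq_dot, sum_sq_eq_dot, sum_sq_eq_dot, sum_sq_eq_dot]
  exact poincare_of_eigen (blockRel_equiv_loc i j a b) (blockRel_equiv_loc i j b d)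
    (blockRel_equiv_loc i j d a) (block3Rel_equiv_loc i j a b d)
    (block_le_block3_ab i j a b d) (block_le_block3_bd i j a b d) (block_le_block3_da i j a b d)
    hconn (fun μ g hg hμ => block3_eigen_of i j hij a b d hab hbd had hstep μ g hg hμ) f

end Vale.Agent.H86.CT
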